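import Vale.Agent.P125.BV85.Window
import Vale.Agent.P125.BV.PotentialNE
import Vale.Agent.P125.BV.Deficit67
import Vale.Agent.P125.BV.Assemble
import Vale.Agent.P125.BV.Top

set_option linter.unusedSectionVars false
set_option linter.unusedVariables false

/-!
# P125, (BV): the concrete windows satisfy the hypotheses of the potential argument, and (BV)
-/

namespace Vale.Agent.P125.BV85

open scoped BigOperators
open Vale.Agent.P125.Dich Vale.Agent.P125.BV

variable {S M : Type} [Fintype S] [Fintype M] {C : MChain S M} (D : Lab C)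

namespace Lab

lemma ok_of_mu_ne (l : List M) (h : D.mu l ≠ 0) : D.ok l := by
  by_contra hn
  apply h
  unfold mu
  rw [if_neg hn]

lemma mu_of_ok (l : List M) (h : D.ok l) : D.mu l = D.mn l := by
  unfold mu
  rw [if_pos h]

lemma mu_of_not_ok (l : List M) (h : ¬ D.ok l) : D.mu l = 0 := by
  unfold mu
  rw [if_neg h]

theorem potNE : PotNE C D.mu D.sgl D.cc where
  mu_nonneg := D.mu_nonneg
  mu_rev := fun l => D.mu_rv l
  sg_pm := fun l => sg_eq_or _ _
  sg_rev := fun l h => D.sgl_rv l (D.ok_of_mu_ne l h)
  mu_left := by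
    intro l1 l2 h1 h2
    by_cases h : D.ok (l1 ++ l2)
    · have h' := D.ok_left l1 l2 h1 h
      rw [D.mu_of_ok _ h, D.mu_of_ok _ h']
      exact D.mn_mono l1 (l1 ++ l2) h1 (fun m hm => List.mem_append_left _ hm)
    · rw [D.mu_of_not_ok _ h]
      exact D.mu_nonneg l1
  mu_right := by
    intro l1 l2 h1 h2
    by_cases h : D.ok (l1 ++ l2)
    · have h' := D.ok_right l1 l2 h2 h
      rw [D.mu_of_ok _ h, D.mu_of_ok _ h']
      exact D.mn_mono l2 (l1 ++ l2) h2 (fun m hm => List.mem_append_right _ hm)
    · rw [D.mu_of_not_ok _ h]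
      exact D.mu_nonneg l2
  cc_left := by
    intro l1 l2 h1 h2 _
    exact altc_mono (D.setA_left l1 l2 h1) (D.setB_left l1 l2 h1)
  cc_right := by
    intro l1 l2 h1 h2 _
    exact altc_mono (D.setA_right l1 l2 h2) (D.setB_right l1 l2 h2)
  sg_left := by
    intro l1 l2 h1 h2 hmu hc
    have hok := D.ok_of_mu_ne _ hmu
    have hok1 := D.ok_left l1 l2 h1 hok
    exact sg_eq_of_altc_eq (D.setA_left l1 l2 h1) (D.setB_left l1 l2 h1)
      (D.disj l1 h1 hok1.2.1) hok.2.2.2 hc
  sg_right := by
    intro l1 l2 h1 h2 hmu hc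
    have hok := D.ok_of_mu_ne _ hmu
    have hok2 := D.ok_right l1 l2 h2 hok
    exact sg_eq_of_altc_eq (D.setA_right l1 l2 h2) (D.setB_right l1 l2 h2)
      (D.disj l2 h2 hok2.2.1) hok.2.2.2 hc

lemma mn_singleton (m : M) : D.mn [m] = D.Nn m := by
  obtain ⟨m', hm', h⟩ := D.mn_mem [m] (by simp)
  rw [List.mem_singleton] at hm'
  rw [← h, hm']

lemma mu_single_sq_le (m : M) : D.mu [m] ^ 2 ≤ D.Nn m ^ 2 := by
  by_cases h : D.ok [m]
  · rw [D.mu_of_ok _ h, mn_singleton]
  · rw [D.mu_of_not_ok _ h]
    have := sq_nonneg (D.Nn m)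
    simpa using this

lemma single_cc (m : M) :
    D.mu [m] ^ 2 * (D.cc [m] : ℝ) ≤
      D.Nn m ^ 2 + D.Nn m * ∑ j ∈ Finset.range D.n, |D.g m (j + 1) - D.g m j| := by
  have hN := D.Nn_nonneg m
  have hV : 0 ≤ ∑ j ∈ Finset.range D.n, |D.g m (j + 1) - D.g m j| :=
    Finset.sum_nonneg fun _ _ => abs_nonneg _
  have hmn := D.mn_singleton m
  have hvar := altc_var (D.g m) (3 / 4 * D.Nn m) (by positivity) D.n
    (A := D.setA [m]) (B := D.setB [m])
    (by
      intro x hx
      rw [mem_setA, hmn] at hx
      refine ⟨hx.1, ?_⟩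
      have := hx.2
      simp only [dfA, List.map_cons, List.map_nil, List.sum_cons, List.sum_nil] at this
      linarith)
    (by
      intro x hx
      rw [mem_setB, hmn] at hx
      refine ⟨hx.1, ?_⟩
      have := hx.2
      simp only [dfB, List.map_cons, List.map_nil, List.sum_cons, List.sum_nil] at this
      linarith)
  have hvar' : ((D.cc [m] : ℝ) - 1) * (2 * (3 / 4 * D.Nn m)) ≤
      ∑ j ∈ Finset.range D.n, |D.g m (j + 1) - D.g m j| := hvar
  by_cases h : D.ok [m]
  · rw [D.mu_of_ok _ h, hmn]
    nlinarith [mul_le_mul_of_nonneg_left hvar' hN, mul_nonneg hN hV]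
  · rw [D.mu_of_not_ok _ h]
    have : (0 : ℝ) ^ 2 * (D.cc [m] : ℝ) = 0 := by ring
    rw [this]
    positivity

end Lab

lemma sm_apply (g : M → ℕ → ℝ) (l : List M) (k : ℕ) :
    sm g l k = (l.map (fun m => g m k)).sum := by
  induction l with
  | nil => simp [sm]
  | cons a l ih =>
    have h1 : sm g (a :: l) = g a + sm g l := by simp [sm]
    rw [h1, Pi.add_apply, ih]
    simp

lemma supJ_nonneg (n : ℕ) (h : ℕ → ℝ) : 0 ≤ supJ n h :=
  le_trans (abs_nonneg (h 0))
    (Finset.le_sup' (fun k => |h k|) (Finset.mem_range.2 (Nat.succ_pos n)))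

lemma abs_le_supJ (n : ℕ) (h : ℕ → ℝ) (k : ℕ) (hk : k ≤ n) : |h k| ≤ supJ n h :=
  Finset.le_sup' (fun k => |h k|) (Finset.mem_range.2 (Nat.lt_succ_of_le hk))

lemma exists_supJ (n : ℕ) (h : ℕ → ℝ) : ∃ k, k ≤ n ∧ supJ n h = |h k| := by
  obtain ⟨k, hk, he⟩ := Finset.exists_mem_eq_sup' (s := Finset.range (n + 1)) ⟨0, by simp⟩
    (fun k => |h k|)
  exact ⟨k, Nat.lt_succ_iff.1 (Finset.mem_range.1 hk), he⟩

lemma supJ_neg (n : ℕ) (h : ℕ → ℝ) : supJ n (-h) = supJ n h := by
  unfold supJ
  simp only [Pi.neg_apply, abs_neg]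

/-- the labelling given by profiles -/
noncomputable def mkLab (C : MChain S M) (n : ℕ) (g : M → ℕ → ℝ)
    (hg : ∀ m, g (C.inv m) = - g m) : Lab C where
  g := g
  Nn := fun m => supJ n (g m)
  n := n
  hN := fun m k hk => abs_le_supJ n (g m) k hk
  hg := fun m k => by rw [hg]; rfl
  hNi := fun m => by rw [hg, supJ_neg]

/-- **(BV)** for all marked reversible chains -/
theorem bvProp : BVProp := by
  intro S M _ _ C n g hg L
  set D := mkLab C n g hg with hD
  have hsum : ∀ (l : List M) (k : ℕ), k ≤ n → |sm g l k| ≤ (l.map D.Nn).sum := by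
    intro l k hk
    rw [sm_apply]
    induction l with
    | nil => simp
    | cons a l ih =>
      simp only [List.map_cons, List.sum_cons]
      exact le_trans (abs_add_le _ _) (add_le_add (abs_le_supJ n (g a) k hk) ih)
  have hT : ∀ l : List M, supJ n (sm g l) ≤ (l.map D.Nn).sum := by
    intro l
    obtain ⟨k, hk, he⟩ := exists_supJ n (sm g l)
    rw [he]
    exact hsum l k hk
  have key := bv_assemble C D.Nn (fun m => tv n (g m)) (fun l => supJ n (sm g l)) D.mu D.cc L
    (D.potNE.potential L) (D.mu_single_sq_le) (fun m => D.single_cc m)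
    (by
      intro l hl
      have hne : l ≠ [] := by
        intro h
        rw [h] at hl
        have : 0 < 2 ^ L := by positivity
        simp at hl
        omega
      obtain ⟨m1, hm1, e1⟩ := D.mn_mem l hne
      obtain ⟨m2, hm2, e2⟩ := D.mx_mem l hne
      have hL : ∀ x ∈ l.map D.Nn, 0 ≤ x := by
        intro x hx
        obtain ⟨m, _, rfl⟩ := List.mem_map.1 hx
        exact D.Nn_nonneg m
      have dp := D67.deficit_pointwise (l.map D.Nn) hL (D.mn l) (D.mx l) (supJ n (sm g l))
        (List.mem_map.2 ⟨m1, hm1, e1⟩) (List.mem_map.2 ⟨m2, hm2, e2⟩)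
        (by
          intro x hx
          obtain ⟨m, hm, rfl⟩ := List.mem_map.1 hx
          exact D.mn_le l m hm)
        (by
          intro x hx
          obtain ⟨m, hm, rfl⟩ := List.mem_map.1 hx
          exact D.le_mx l m hm)
        (supJ_nonneg n _) (hT l)
      have e3 : ((l.map D.Nn).map (fun x => x ^ 2)).sum = (l.map (fun m => D.Nn m ^ 2)).sum := by
        rw [List.map_map]
        rfl
      rw [e3, List.length_map] at dp
      have h2 : D.mn l ^ 2 * (if (0 < D.mn l ∧ D.mx l ≤ 2 * D.mn l ∧
          (l.map D.Nn).sum - supJ n (sm g l) ≤ D.mn l / 4) then (1 : ℝ) else 0) ≤ D.mu l ^ 2 := by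
        split_ifs with h
        · have hok : D.ok l := by
            refine ⟨hne, h.1, h.2.1, ?_⟩
            obtain ⟨k, hk, he⟩ := exists_supJ n (sm g l)
            rcases le_total 0 (sm g l k) with h0 | h0
            · refine ⟨k, Finset.mem_union_left _ ((D.mem_setA l k).2 ⟨hk, ?_⟩)⟩
              have e : D.dfA l k = (l.map D.Nn).sum - sm g l k := by
                rw [sm_apply]
                unfold Lab.dfA
                clear * -
                induction l with
                | nil => simp
                | cons a l ih =>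
                  simp only [List.map_cons, List.sum_cons]
                  rw [ih]
                  have : D.g a k = g a k := rfl
                  rw [this]
                  ring
              rw [e]
              rw [he, abs_of_nonneg h0] at h
              exact h.2.2
            · refine ⟨k, Finset.mem_union_right _ ((D.mem_setB l k).2 ⟨hk, ?_⟩)⟩
              have e : D.dfB l k = (l.map D.Nn).sum + sm g l k := by
                rw [sm_apply]
                unfold Lab.dfB
                clear * -
                induction l with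
                | nil => simp
                | cons a l ih =>
                  simp only [List.map_cons, List.sum_cons]
                  rw [ih]
                  have : D.g a k = g a k := rfl
                  rw [this]
                  ring
              rw [e]
              rw [he, abs_of_nonpos h0] at h
              linarith [h.2.2]
          rw [D.mu_of_ok l hok, mul_one]
        · rw [mul_zero]
          exact sq_nonneg _
      have hM : (0 : ℝ) ≤ (l.length : ℝ) := Nat.cast_nonneg _
      have h3 := mul_le_mul_of_nonneg_left h2 hM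
      linarith)
  have c1 : C.E 1 (fun l => (l.map (fun m => D.Nn m ^ 2)).sum) =
      C.E 1 (fun l => supJ n (sm g l) ^ 2) := by
    apply E_congr
    intro l hl
    obtain ⟨m, rfl⟩ := List.length_eq_one_iff.1 hl
    have : sm g [m] = g m := by simp [sm]
    rw [this]
    simp only [List.map_cons, List.map_nil, List.sum_cons, List.sum_nil, add_zero]
    rfl
  have c2 : C.E 1 (fun l => (l.map (fun m => D.Nn m * tv n (g m))).sum) =
      C.E 1 (fun l => supJ n (sm g l) * tv n (sm g l)) := by
    apply E_congr
    intro l hl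
    obtain ⟨m, rfl⟩ := List.length_eq_one_iff.1 hl
    have : sm g [m] = g m := by simp [sm]
    rw [this]
    simp only [List.map_cons, List.map_nil, List.sum_cons, List.sum_nil, add_zero]
    rfl
  rw [c1, c2] at key
  exact key

end Vale.Agent.P125.BV85
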