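import Vale.Agent.P125.BV85.Close

/-!
# P125, (alpha): the summing operators are uniformly sub-ballistic for reversible chains
-/

namespace Vale.Agent.P125.BV85

open scoped BigOperators
open Vale.Agent.P125.Dich Vale.Agent.P125.BV

/-- **(alpha)**, function form -/
theorem alpha_final : ∀ ε : ℝ, 0 < ε → ∃ t : ℕ, 1 ≤ t ∧ RFun t ε := alpha_of_BV bvProp

end Vale.Agent.P125.BV85
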