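import Vale.Agent.P125.BV.Alt
import Vale.Agent.P125.Dich.ApiB

set_option linter.unusedSectionVars false
set_option linter.unusedVariables false

/-!
# P125, (BV): windows of a path (facts (a), (b), (c) of the plan)

`Lab C` is a labelling of the marks of a marked reversible chain by profiles `g m : ℕ → ℝ`
(cumulative sums of a vector, positions `0..n`), odd under reversal of the mark, with a bound `Nn m`
of the profile.  For a window `l : List M` we define `mn`, `mx`, the sets `setA`, `setB` of the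
positions at which the window is almost straight upwards / downwards, `ok`, the alternation count
`cc` and the first letter `sgl`.
-/

namespace Vale.Agent.P125.BV85

open scoped BigOperators
open Vale.Agent.P125.Dich Vale.Agent.P125.BV

variable {S M : Type} [Fintype S] [Fintype M]

structure Lab (C : MChain S M) where
  g : M → ℕ → ℝ
  Nn : M → ℝ
  n : ℕ
  hN : ∀ m k, k ≤ n → |g m k| ≤ Nn m
  hg : ∀ m k, g (C.inv m) k = - g m k
  hNi : ∀ m, Nn (C.inv m) = Nn m

variable {C : MChain S M} (D : Lab C)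

namespace Lab

lemma Nn_nonneg (m : M) : 0 ≤ D.Nn m := le_trans (abs_nonneg _) (D.hN m 0 (Nat.zero_le _))

/-- the reversed window -/
def rv (C : MChain S M) (l : List M) : List M := (l.map C.inv).reverse

lemma mem_rv (l : List M) (m : M) : m ∈ rv C l ↔ C.inv m ∈ l := by
  unfold rv
  rw [List.mem_reverse, List.mem_map]
  constructor
  · rintro ⟨a, ha, rfl⟩
    rwa [C.inv_inv]
  · intro h
    exact ⟨C.inv m, h, C.inv_inv m⟩

lemma rv_ne_nil (l : List M) (h : l ≠ []) : rv C l ≠ [] := by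
  unfold rv
  simpa using h

def vals (l : List M) : Set ℝ := {x | ∃ m ∈ l, D.Nn m = x}

lemma vals_finite (l : List M) : (D.vals l).Finite :=
  (List.finite_toSet l).image D.Nn

lemma vals_nonempty (l : List M) (h : l ≠ []) : (D.vals l).Nonempty := by
  obtain ⟨m, hm⟩ := List.exists_mem_of_ne_nil l h
  exact ⟨D.Nn m, m, hm, rfl⟩

lemma vals_rv (l : List M) : D.vals (rv C l) = D.vals l := by
  ext x
  constructor
  · rintro ⟨m, hm, rfl⟩
    exact ⟨C.inv m, (mem_rv l m).1 hm, D.hNi m⟩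
  · rintro ⟨m, hm, rfl⟩
    exact ⟨C.inv m, (mem_rv l _).2 (by rwa [C.inv_inv]), D.hNi m⟩

noncomputable def mn (l : List M) : ℝ := sInf (D.vals l)
noncomputable def mx (l : List M) : ℝ := sSup (D.vals l)

lemma mn_mem (l : List M) (h : l ≠ []) : ∃ m ∈ l, D.Nn m = D.mn l :=
  (D.vals_nonempty l h).csInf_mem (D.vals_finite l)

lemma mx_mem (l : List M) (h : l ≠ []) : ∃ m ∈ l, D.Nn m = D.mx l :=
  (D.vals_nonempty l h).csSup_mem (D.vals_finite l)

lemma mn_le (l : List M) (m : M) (hm : m ∈ l) : D.mn l ≤ D.Nn m :=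
  csInf_le (D.vals_finite l).bddBelow ⟨m, hm, rfl⟩

lemma le_mx (l : List M) (m : M) (hm : m ∈ l) : D.Nn m ≤ D.mx l :=
  le_csSup (D.vals_finite l).bddAbove ⟨m, hm, rfl⟩

lemma mn_rv (l : List M) : D.mn (rv C l) = D.mn l := by unfold mn; rw [vals_rv]
lemma mx_rv (l : List M) : D.mx (rv C l) = D.mx l := by unfold mx; rw [vals_rv]

lemma mn_nonneg (l : List M) : 0 ≤ D.mn l := by
  rcases eq_or_ne l [] with rfl | h
  · have : D.vals [] = ∅ := by
      ext x; simp [vals]
    unfold mn; rw [this, Real.sInf_empty]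
  · obtain ⟨m, _, hm⟩ := D.mn_mem l h
    rw [← hm]; exact D.Nn_nonneg m

/-- monotonicity under passing to a nonempty sub-window -/
lemma mn_mono (l l' : List M) (h : l ≠ []) (hs : ∀ m ∈ l, m ∈ l') : D.mn l' ≤ D.mn l := by
  obtain ⟨m, hm, hm'⟩ := D.mn_mem l h
  rw [← hm']; exact D.mn_le l' m (hs m hm)

lemma mx_mono (l l' : List M) (h : l ≠ []) (hs : ∀ m ∈ l, m ∈ l') : D.mx l ≤ D.mx l' := by
  obtain ⟨m, hm, hm'⟩ := D.mx_mem l h
  rw [← hm']; exact D.le_mx l' m (hs m hm)

/-- deficiencies -/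
def dfA (l : List M) (k : ℕ) : ℝ := (l.map (fun m => D.Nn m - D.g m k)).sum
def dfB (l : List M) (k : ℕ) : ℝ := (l.map (fun m => D.Nn m + D.g m k)).sum

lemma dfA_nonneg (l : List M) (k : ℕ) (hk : k ≤ D.n) : 0 ≤ D.dfA l k := by
  apply List.sum_nonneg
  intro x hx
  obtain ⟨m, _, rfl⟩ := List.mem_map.1 hx
  have := D.hN m k hk
  have h2 := le_abs_self (D.g m k)
  show 0 ≤ D.Nn m - D.g m k
  linarith

lemma dfB_nonneg (l : List M) (k : ℕ) (hk : k ≤ D.n) : 0 ≤ D.dfB l k := by
  apply List.sum_nonneg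
  intro x hx
  obtain ⟨m, _, rfl⟩ := List.mem_map.1 hx
  have := D.hN m k hk
  have h2 := neg_abs_le (D.g m k)
  show 0 ≤ D.Nn m + D.g m k
  linarith

lemma dfA_append (l l' : List M) (k : ℕ) : D.dfA (l ++ l') k = D.dfA l k + D.dfA l' k := by
  unfold dfA; rw [List.map_append, List.sum_append]

lemma dfB_append (l l' : List M) (k : ℕ) : D.dfB (l ++ l') k = D.dfB l k + D.dfB l' k := by
  unfold dfB; rw [List.map_append, List.sum_append]

lemma dfA_rv (l : List M) (k : ℕ) : D.dfA (rv C l) k = D.dfB l k := by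
  unfold dfA dfB rv
  rw [List.map_reverse, List.sum_reverse, List.map_map]
  congr 1
  apply List.map_congr_left
  intro m _
  simp only [Function.comp, D.hNi, D.hg]
  ring

lemma dfB_rv (l : List M) (k : ℕ) : D.dfB (rv C l) k = D.dfA l k := by
  unfold dfA dfB rv
  rw [List.map_reverse, List.sum_reverse, List.map_map]
  congr 1
  apply List.map_congr_left
  intro m _
  simp only [Function.comp, D.hNi, D.hg]
  ring

lemma dfA_add_dfB (l : List M) (k : ℕ) :
    D.dfA l k + D.dfB l k = 2 * (l.map D.Nn).sum := by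
  unfold dfA dfB
  induction l with
  | nil => simp
  | cons a l ih =>
    simp only [List.map_cons, List.sum_cons]
    linarith

lemma mn_le_sum (l : List M) (h : l ≠ []) : D.mn l ≤ (l.map D.Nn).sum := by
  obtain ⟨m, hm, hm'⟩ := D.mn_mem l h
  rw [← hm']
  apply List.single_le_sum
  · intro x hx
    obtain ⟨a, _, rfl⟩ := List.mem_map.1 hx
    exact D.Nn_nonneg a
  · exact List.mem_map_of_mem hm

noncomputable def setA (l : List M) : Finset ℕ :=
  (Finset.range (D.n + 1)).filter (fun k => D.dfA l k ≤ D.mn l / 4)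
noncomputable def setB (l : List M) : Finset ℕ :=
  (Finset.range (D.n + 1)).filter (fun k => D.dfB l k ≤ D.mn l / 4)

lemma mem_setA (l : List M) (k : ℕ) : k ∈ D.setA l ↔ k ≤ D.n ∧ D.dfA l k ≤ D.mn l / 4 := by
  unfold setA
  rw [Finset.mem_filter, Finset.mem_range, Nat.lt_succ_iff]

lemma mem_setB (l : List M) (k : ℕ) : k ∈ D.setB l ↔ k ≤ D.n ∧ D.dfB l k ≤ D.mn l / 4 := by
  unfold setB
  rw [Finset.mem_filter, Finset.mem_range, Nat.lt_succ_iff]

/-- fact (c) -/
lemma setA_rv (l : List M) : D.setA (rv C l) = D.setB l := by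
  ext k; rw [mem_setA, mem_setB, dfA_rv, mn_rv]

lemma setB_rv (l : List M) : D.setB (rv C l) = D.setA l := by
  ext k; rw [mem_setA, mem_setB, dfB_rv, mn_rv]

/-- fact (b) -/
lemma disj (l : List M) (h : l ≠ []) (hpos : 0 < D.mn l) : Disjoint (D.setA l) (D.setB l) := by
  rw [Finset.disjoint_left]
  intro k hA hB
  have h1 := ((D.mem_setA l k).1 hA).2
  have h2 := ((D.mem_setB l k).1 hB).2
  have h3 := D.dfA_add_dfB l k
  have h4 := D.mn_le_sum l h
  linarith

/-- fact (a), left half -/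
lemma setA_left (l l' : List M) (h : l ≠ []) : D.setA (l ++ l') ⊆ D.setA l := by
  intro k hk
  obtain ⟨hk1, hk2⟩ := (D.mem_setA _ k).1 hk
  refine (D.mem_setA _ k).2 ⟨hk1, ?_⟩
  have h1 := D.dfA_nonneg l' k hk1
  have h2 := D.mn_mono l (l ++ l') h (fun m hm => List.mem_append_left _ hm)
  rw [dfA_append] at hk2
  linarith

lemma setA_right (l l' : List M) (h : l' ≠ []) : D.setA (l ++ l') ⊆ D.setA l' := by
  intro k hk
  obtain ⟨hk1, hk2⟩ := (D.mem_setA _ k).1 hk
  refine (D.mem_setA _ k).2 ⟨hk1, ?_⟩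
  have h1 := D.dfA_nonneg l k hk1
  have h2 := D.mn_mono l' (l ++ l') h (fun m hm => List.mem_append_right _ hm)
  rw [dfA_append] at hk2
  linarith

lemma setB_left (l l' : List M) (h : l ≠ []) : D.setB (l ++ l') ⊆ D.setB l := by
  intro k hk
  obtain ⟨hk1, hk2⟩ := (D.mem_setB _ k).1 hk
  refine (D.mem_setB _ k).2 ⟨hk1, ?_⟩
  have h1 := D.dfB_nonneg l' k hk1
  have h2 := D.mn_mono l (l ++ l') h (fun m hm => List.mem_append_left _ hm)
  rw [dfB_append] at hk2
  linarith

lemma setB_right (l l' : List M) (h : l' ≠ []) : D.setB (l ++ l') ⊆ D.setB l' := by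
  intro k hk
  obtain ⟨hk1, hk2⟩ := (D.mem_setB _ k).1 hk
  refine (D.mem_setB _ k).2 ⟨hk1, ?_⟩
  have h1 := D.dfB_nonneg l k hk1
  have h2 := D.mn_mono l' (l ++ l') h (fun m hm => List.mem_append_right _ hm)
  rw [dfB_append] at hk2
  linarith

def ok (l : List M) : Prop :=
  l ≠ [] ∧ 0 < D.mn l ∧ D.mx l ≤ 2 * D.mn l ∧ (D.setA l ∪ D.setB l).Nonempty

lemma ok_rv (l : List M) : D.ok (rv C l) ↔ D.ok l := by
  unfold ok
  rw [mn_rv, mx_rv, setA_rv, setB_rv, Finset.union_comm]
  constructor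
  · rintro ⟨h1, h2⟩
    refine ⟨?_, h2⟩
    rintro rfl
    exact h1 rfl
  · rintro ⟨h1, h2⟩
    exact ⟨rv_ne_nil l h1, h2⟩

lemma ok_left (l l' : List M) (h : l ≠ []) (hok : D.ok (l ++ l')) : D.ok l := by
  obtain ⟨_, h2, h3, h4⟩ := hok
  have hm := D.mn_mono l (l ++ l') h (fun m hm => List.mem_append_left _ hm)
  have hx := D.mx_mono l (l ++ l') h (fun m hm => List.mem_append_left _ hm)
  refine ⟨h, by linarith, by linarith, ?_⟩
  exact h4.mono (Finset.union_subset_union (D.setA_left l l' h) (D.setB_left l l' h))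

lemma ok_right (l l' : List M) (h : l' ≠ []) (hok : D.ok (l ++ l')) : D.ok l' := by
  obtain ⟨_, h2, h3, h4⟩ := hok
  have hm := D.mn_mono l' (l ++ l') h (fun m hm => List.mem_append_right _ hm)
  have hx := D.mx_mono l' (l ++ l') h (fun m hm => List.mem_append_right _ hm)
  refine ⟨h, by linarith, by linarith, ?_⟩
  exact h4.mono (Finset.union_subset_union (D.setA_right l l' h) (D.setB_right l l' h))

noncomputable def cc (l : List M) : ℕ := altc (D.setA l) (D.setB l)
noncomputable def sgl (l : List M) : ℝ := sg (D.setA l) (D.setB l)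

open Classical in
noncomputable def mu (l : List M) : ℝ := if D.ok l then D.mn l else 0

lemma mu_nonneg (l : List M) : 0 ≤ D.mu l := by
  unfold mu; split_ifs
  · exact D.mn_nonneg l
  · exact le_refl _

lemma mu_rv (l : List M) : D.mu (rv C l) = D.mu l := by
  unfold mu
  by_cases h : D.ok l
  · rw [if_pos h, if_pos ((D.ok_rv l).2 h), mn_rv]
  · rw [if_neg h, if_neg (fun h' => h ((D.ok_rv l).1 h'))]

lemma cc_rv (l : List M) : D.cc (rv C l) = D.cc l := by
  unfold cc; rw [setA_rv, setB_rv, altc_swap]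

lemma sgl_rv (l : List M) (h : D.ok l) : D.sgl (rv C l) = - D.sgl l := by
  unfold sgl; rw [setA_rv, setB_rv]
  exact sg_swap (D.disj l h.1 h.2.1) h.2.2.2

lemma musg_rv (l : List M) : D.mu (rv C l) * D.sgl (rv C l) = - (D.mu l * D.sgl l) := by
  by_cases h : D.ok l
  · rw [mu_rv, sgl_rv D l h]; ring
  · have : D.mu l = 0 := by unfold mu; rw [if_neg h]
    rw [mu_rv, this]; ring

end Lab

end Vale.Agent.P125.BV85
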